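import Vale.Agent.P181.R2.H959.WDefs
import Vale.Agent.P181.R2.H959.FMul
import Vale.Agent.P181.R2.H959.FPow
import Vale.Agent.P181.R2.H182.PtMul

set_option autoImplicit false

namespace Vale.Agent.P181.FR.G474

open Vale.Agent.P181 Vale.Agent.P181.H280 Vale.Agent.P181.FR


lemma gw_add (m : ℕ) (g g' : ℕ → ℕ) : gw m (g + g') = gw m g + gw m g' := by
  funext k
  simp only [gw, Pi.add_apply]
  exact Finset.sum_add_distrib

lemma gw_single {m i : ℕ} (him : i ≤ m) (t : ℕ) :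
    gw m (Pi.single i t) = t • om m i := by
  funext k
  simp only [gw, om, Pi.smul_apply, smul_eq_mul, mul_ite, mul_one, mul_zero]
  by_cases hk : (k : ℕ) < i
  · rw [if_pos hk, Finset.sum_eq_single i]
    · rw [Pi.single_eq_same]
    · intro j _ hj
      rw [Pi.single_eq_of_ne hj]
    · intro h
      exact absurd (Finset.mem_Ioc.2 ⟨hk, him⟩) h
  · rw [if_neg hk]
    apply Finset.sum_eq_zero
    intro j hj
    have h1 := (Finset.mem_Ioc.1 hj).1
    have h2 : j ≠ i := by omega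
    rw [Pi.single_eq_of_ne h2]

lemma sum_single {m i : ℕ} (hi : 1 ≤ i) (him : i ≤ m) (t : ℕ) :
    ∑ j ∈ Finset.Icc 1 m, j * (Pi.single i t : ℕ → ℕ) j = i * t := by
  rw [Finset.sum_eq_single i]
  · rw [Pi.single_eq_same]
  · intro j _ hj
    rw [Pi.single_eq_of_ne hj, mul_zero]
  · intro h
    exact absurd (Finset.mem_Icc.2 ⟨hi, him⟩) h

lemma arith {N a0 m : ℕ} (hm : 1 ≤ m) : ∃ C : ℕ, a0 + 2 ≤ C ∧ ∀ a : ℕ, C ≤ a →
    ∃ c e h s : ℕ, a = e + 2 * c ∧ a0 ≤ e ∧ N * (h + 1) ≤ c ∧ (4 * m * a) * s ≤ h * h ∧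
      a ≤ s ^ 2 := by
  obtain ⟨D, hD⟩ : ∃ D : ℕ, D = 8 * (N + 1) := ⟨_, rfl⟩
  obtain ⟨K, hK⟩ : ∃ K : ℕ, K = 32 * m * D ^ 2 := ⟨_, rfl⟩
  have hD1 : 1 ≤ D := by omega
  have hK1 : 1 ≤ K := by
    rw [hK]
    have : 1 ≤ D ^ 2 := Nat.one_le_pow _ _ hD1
    nlinarith
  refine ⟨4 * K ^ 2 + D + 8 * N + 8 * a0 + 8, by nlinarith, fun a ha => ?_⟩
  obtain ⟨c, hc⟩ : ∃ c : ℕ, c = (a - a0) / 2 := ⟨_, rfl⟩
  obtain ⟨h, hh⟩ : ∃ h : ℕ, h = a / D := ⟨_, rfl⟩
  obtain ⟨s, hs⟩ : ∃ s : ℕ, s = a / K := ⟨_, rfl⟩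
  have h1 : h * D ≤ a := by rw [hh]; exact Nat.div_mul_le_self a D
  have h2 : a < h * D + D := by
    rw [hh]
    have := Nat.lt_div_mul_add (a := a) (b := D) (by omega)
    exact this
  have s1 : s * K ≤ a := by rw [hs]; exact Nat.div_mul_le_self a K
  have s2 : a < s * K + K := by
    rw [hs]
    exact Nat.lt_div_mul_add (a := a) (b := K) (by omega)
  have haD : D ≤ a := by nlinarith
  have haK : 4 * K ^ 2 ≤ a := by omega
  have hKK : K ≤ 4 * K ^ 2 := by nlinarith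
  have h3 : a ≤ 2 * (h * D) := by
    have : 1 ≤ h := by
      rw [hh]
      exact Nat.div_pos haD (by omega)
    nlinarith
  have s3 : a ≤ 2 * (s * K) := by
    have : 1 ≤ s := by
      rw [hs]
      exact Nat.div_pos (hKK.trans haK) (by omega)
    nlinarith
  refine ⟨c, a - 2 * c, h, s, by omega, by omega, ?_, ?_, ?_⟩
  · -- N (h+1) ≤ c
    have h4 : 8 * (N * h) ≤ a := by
      have : 8 * (N * h) ≤ h * D := by
        rw [hD]
        nlinarith
      omega
    have h5 : N * (h + 1) = N * h + N := by ring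
    rw [h5]
    omega
  · have h4 : a * a ≤ 4 * D ^ 2 * (h * h) := by
      have := Nat.mul_le_mul h3 h3
      calc a * a ≤ 2 * (h * D) * (2 * (h * D)) := this
        _ = 4 * D ^ 2 * (h * h) := by ring
    have h5 : 8 * D ^ 2 * (4 * m * a * s) ≤ a * a := by
      calc 8 * D ^ 2 * (4 * m * a * s) = a * (s * (32 * m * D ^ 2)) := by ring
        _ = a * (s * K) := by rw [hK]
        _ ≤ a * a := Nat.mul_le_mul_left a s1
    have h6 : 1 ≤ D ^ 2 := Nat.one_le_pow _ _ hD1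
    have h7 : 4 * D ^ 2 * (4 * m * a * s) ≤ 4 * D ^ 2 * (h * h) := by
      calc 4 * D ^ 2 * (4 * m * a * s) ≤ 8 * D ^ 2 * (4 * m * a * s) := by
            apply Nat.mul_le_mul_right
            omega
        _ ≤ a * a := h5
        _ ≤ _ := h4
    exact Nat.le_of_mul_le_mul_left h7 (by omega)
  · have h4 : a * a ≤ 4 * K ^ 2 * s ^ 2 := by
      have := Nat.mul_le_mul s3 s3
      calc a * a ≤ 2 * (s * K) * (2 * (s * K)) := this
        _ = 4 * K ^ 2 * s ^ 2 := by ring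
    have h5 : 4 * K ^ 2 * a ≤ 4 * K ^ 2 * s ^ 2 :=
      le_trans (Nat.mul_le_mul_right a haK) h4
    have h6 : 1 ≤ K ^ 2 := Nat.one_le_pow _ _ hK1
    exact Nat.le_of_mul_le_mul_left h5 (by omega)

/-- Row W9 from W5 (pos_all) and W8 (rich_rect). -/
theorem gap_case_of {m i : ℕ} (hi : 3 ≤ i) (him : i ≤ m)
    (pos_all : ∃ a0 : ℕ, ∀ (a B : ℕ) (g : ℕ → ℕ),
      a0 ≤ a → 3 * (m + 1) * a ≤ g i → ∑ j ∈ Finset.Icc 1 m, j * g j = a * B →
      Pos B a m (gw m g))
    (rich_rect : ∃ N : ℕ, ∀ c h R s : ℕ, N * (h + 1) ≤ c → R * s ≤ h * h →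
      s ^ R ≤ plethMult (2 * i * R) (2 * c) m ((4 * c * R) • om m i)) :
    ∃ C : ℕ, ∀ (a b : ℕ) (g : ℕ → ℕ),
    C ≤ a → b + 1 ≤ a ^ 2 → ∑ j ∈ Finset.Icc 1 m, j * g j = a * b → C * a ^ 2 ≤ g i →
    plethMult a b m (gw m g) ≤ plethMult b a m (gw m g) := by
  obtain ⟨a0, hpos⟩ := pos_all
  obtain ⟨N, hrich⟩ := rich_rect
  obtain ⟨C0, hC0, hC⟩ := arith (N := N) (a0 := a0) (m := m) (by omega)
  refine ⟨C0 + 8 * m + 3 * (m + 1), fun a b g ha hb hsum hg => ?_⟩
  obtain ⟨c, e, h, s, hace, hae, hN, hs, has⟩ := hC a (by omega)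
  have ha1 : 1 ≤ a := by omega
  obtain ⟨R, hR⟩ : ∃ R : ℕ, R = 4 * m * a := ⟨_, rfl⟩
  have hR1 : 3 * (m + 1) ≤ 2 * R := by
    rw [hR]
    nlinarith
  -- rich part
  have r1 : s ^ R ≤ plethMult (2 * i * R) (2 * c) m ((4 * c * R) • om m i) :=
    hrich c h R s hN (by rw [hR]; exact hs)
  -- pointwise product
  have p1 : Pos (2 * i * R) e m (gw m (Pi.single i (2 * R * e))) := by
    apply hpos e (2 * i * R) (Pi.single i (2 * R * e)) hae
    · rw [Pi.single_eq_same]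
      exact Nat.mul_le_mul_right e hR1
    · rw [sum_single (by omega) him]
      ring
  have r2 := plethMult_pt (c := 2 * c) (lam := (4 * c * R) • om m i) p1
  rw [← hace, gw_single him, ← add_smul] at r2
  have e1 : 2 * R * e + 4 * c * R = 2 * R * a := by
    rw [hace]
    ring
  rw [e1] at r2
  -- ring product
  have hgi : 8 * m * a ^ 2 + 3 * (m + 1) * a ≤ g i := by
    have : 8 * m * a ^ 2 + 3 * (m + 1) * a ≤ (C0 + 8 * m + 3 * (m + 1)) * a ^ 2 := by
      have h1 : a ≤ a ^ 2 := by nlinarith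
      calc 8 * m * a ^ 2 + 3 * (m + 1) * a ≤ 8 * m * a ^ 2 + 3 * (m + 1) * a ^ 2 := by
            apply Nat.add_le_add_left
            exact Nat.mul_le_mul_left _ h1
        _ ≤ (C0 + 8 * m + 3 * (m + 1)) * a ^ 2 := by
            rw [← Nat.add_mul]
            apply Nat.mul_le_mul_right
            omega
    exact this.trans hg
  have hRa : 2 * R * a = 8 * m * a ^ 2 := by
    rw [hR]
    ring
  obtain ⟨g', hg'⟩ : ∃ g' : ℕ → ℕ, g = g' + Pi.single i (2 * R * a) := by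
    refine ⟨Function.update g i (g i - 2 * R * a), ?_⟩
    funext j
    by_cases hj : j = i
    · subst hj
      rw [Pi.add_apply, Function.update_self, Pi.single_eq_same]
      omega
    · rw [Pi.add_apply, Function.update_of_ne hj, Pi.single_eq_of_ne hj, add_zero]
  have hg'i : 3 * (m + 1) * a ≤ g' i := by
    have h1 := congrFun hg' i
    rw [Pi.add_apply, Pi.single_eq_same] at h1
    omega
  have hsum' : ∑ j ∈ Finset.Icc 1 m, j * g' j + a * (2 * i * R) = a * b := by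
    rw [← hsum, hg']
    have h1 : ∑ j ∈ Finset.Icc 1 m, j * (g' + (Pi.single i (2 * R * a) : ℕ → ℕ)) j =
        ∑ j ∈ Finset.Icc 1 m, j * g' j +
          ∑ j ∈ Finset.Icc 1 m, j * (Pi.single i (2 * R * a) : ℕ → ℕ) j := by
      rw [← Finset.sum_add_distrib]
      apply Finset.sum_congr rfl
      intro j _
      rw [Pi.add_apply, Nat.mul_add]
    rw [h1, sum_single (by omega) him]
    ring
  have hbR : 2 * i * R ≤ b := by
    have h1 : a * (2 * i * R) ≤ a * b := by omega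
    exact Nat.le_of_mul_le_mul_left h1 ha1
  obtain ⟨B, hB⟩ : ∃ B : ℕ, b = 2 * i * R + B := ⟨b - 2 * i * R, by omega⟩
  have p2 : Pos B a m (gw m g') := by
    apply hpos a B g' (by omega) hg'i
    have h1 : ∑ j ∈ Finset.Icc 1 m, j * g' j + a * (2 * i * R) =
        a * (2 * i * R) + a * B := by
      rw [hsum', hB]
      ring
    omega
  have r3 := plethMult_mul (b := 2 * i * R) (lam := (2 * R * a) • om m i) p2
  rw [← hB] at r3
  have e2 : (2 * R * a) • om m i + gw m g' = gw m g := by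
    rw [hg', gw_add, gw_single him, add_comm]
  rw [e2] at r3
  -- the upper bound
  have u1 : plethMult a b m (gw m g) ≤ (b + 1) ^ (m * a) := plethMult_le_pow a b m (gw m g)
  have u2 : (b + 1) ^ (m * a) ≤ s ^ R := by
    rw [hR]
    have h1 : b + 1 ≤ s ^ 4 := by
      calc b + 1 ≤ a ^ 2 := hb
        _ ≤ (s ^ 2) ^ 2 := Nat.pow_le_pow_left has 2
        _ = s ^ 4 := by ring
    calc (b + 1) ^ (m * a) ≤ (s ^ 4) ^ (m * a) := Nat.pow_le_pow_left h1 _
      _ = s ^ (4 * m * a) := by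
        rw [← pow_mul]
        congr 1
        ring
  exact u1.trans (u2.trans (r1.trans (r2.trans r3)))

end Vale.Agent.P181.FR.G474
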